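import Mathlib
import Vale.Agent.P069.Defs
import Vale.Agent.P069.Final

namespace Vale.Agent.Results.P069.ReflexiveAmucNotAuc

open Vale.Agent.P069

/-- There is a separable, reflexive, infinite-dimensional real Banach space whose norm is
asymptotically midpoint uniformly convex (with modulus at least `t ^ 2 / 64`), but which has no
equivalent asymptotically uniformly convex norm. -/
theorem result :
    ∃ (X : Type) (_ : NormedAddCommGroup X) (_ : NormedSpace ℝ X),
      CompleteSpace X ∧ ¬ FiniteDimensional ℝ X ∧ TopologicalSpace.SeparableSpace X ∧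
      Function.Surjective (NormedSpace.inclusionInDoubleDual ℝ X) ∧
      IsAMUC (normSeminorm ℝ X) ∧
      (∀ t : ℝ, 0 < t → t ≤ 1 → ((t ^ 2 / 64 : ℝ) : EReal) ≤ amucModulus (normSeminorm ℝ X) t) ∧
      AMUCRenormable X ∧ ¬ AUCRenormable X := by
  refine ⟨X, inferInstance, inferInstance, inferInstance, not_finiteDimensional_X,
    separableSpace_X, isReflexive_X, isAMUC_norm, ?_, amucRenormable_X, not_aucRenormable⟩
  intro t ht ht1
  have h := le_amucModulus t ht
  rwa [min_eq_left ht1] at h

end Vale.Agent.Results.P069.ReflexiveAmucNotAuc
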